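import Mathlib
import Vale.Agent.Lib.Degree.Count

open Set Filter Topology Matrix

namespace Vale.Agent.P371G

namespace LandS

open Vale.Agent.Lib.Degree

variable {n : Type} [Fintype n] [DecidableEq n]

/-- matrix of a vector indexed by pairs -/
def M (x : n × n → ℝ) : Matrix n n ℝ := Matrix.of fun i j => x (i, j)

/-- symmetric part -/
noncomputable def S (x : n × n → ℝ) : Matrix n n ℝ := (1 / 2 : ℝ) • (M x + (M x)ᵀ)

omit [Fintype n] [DecidableEq n] in
theorem continuous_M : Continuous (M : (n × n → ℝ) → Matrix n n ℝ) :=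
  continuous_matrix fun _ _ => continuous_apply _

omit [Fintype n] [DecidableEq n] in
theorem continuous_S : Continuous (S : (n × n → ℝ) → Matrix n n ℝ) :=
  (continuous_M.add continuous_M.matrix_transpose).const_smul (1 / 2 : ℝ)

omit [Fintype n] [DecidableEq n] in
theorem S_apply (x : n × n → ℝ) (i j : n) : S x i j = (x (i, j) + x (j, i)) / 2 := by
  simp [S, M]; ring

omit [Fintype n] [DecidableEq n] in
theorem S_symm (x : n × n → ℝ) : (S x)ᵀ = S x := by
  ext i j; simp only [transpose_apply, S_apply]; ring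

/-- the closed domain -/
def C (R : ℝ) : Set (n × n → ℝ) :=
  {x | (∀ v : n → ℝ, 0 ≤ v ⬝ᵥ S x *ᵥ v) ∧ (S x).trace ≤ R ∧ ∀ i j, |x (i, j) - x (j, i)| ≤ 1}

omit [DecidableEq n] in
theorem cont_q : Continuous fun z : (n × n → ℝ) × (n → ℝ) => z.2 ⬝ᵥ S z.1 *ᵥ z.2 :=
  continuous_snd.dotProduct ((continuous_S.comp continuous_fst).matrix_mulVec continuous_snd)

omit [DecidableEq n] in
theorem closed_C (R : ℝ) : IsClosed (C R : Set (n × n → ℝ)) := by
  simp only [C, ofPred_and, ofPred_forall]
  refine (isClosed_iInter fun v => isClosed_le continuous_const ?_).inter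
    ((isClosed_le continuous_S.matrix_trace continuous_const).inter
      (isClosed_iInter fun i => isClosed_iInter fun j => isClosed_le (by fun_prop)
        continuous_const))
  exact cont_q.comp (continuous_id.prodMk continuous_const)

omit [DecidableEq n] in
theorem psd_of_mem {R : ℝ} {x : n × n → ℝ} (h : x ∈ C R) : (S x).PosSemidef :=
  Matrix.PosSemidef.of_dotProduct_mulVec_nonneg (by simpa [IsHermitian] using S_symm x)
    fun v => by simpa using h.1 v

theorem bdd_C (R : ℝ) : Bornology.IsBounded (C R : Set (n × n → ℝ)) := by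
  refine (Metric.isBounded_closedBall (x := 0) (r := |R| + 1)).subset fun x hx => ?_
  have hp := psd_of_mem hx
  have hd : ∀ i, 0 ≤ S x i i := fun i => hp.diag_nonneg
  have hle : ∀ i, S x i i ≤ |R| := fun i =>
    (Finset.single_le_sum (f := fun i => S x i i) (fun i _ => hd i) (Finset.mem_univ i)).trans
      (hx.2.1.trans (le_abs_self R))
  rw [mem_closedBall_zero_iff, pi_norm_le_iff_of_nonneg (by positivity)]
  rintro ⟨i, j⟩
  have h1 := hx.1 (Pi.single i 1 + Pi.single j 1)
  have h2 := hx.1 (Pi.single i 1 - Pi.single j 1)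
  simp only [mulVec_add, mulVec_sub, add_dotProduct, sub_dotProduct, dotProduct_add,
    dotProduct_sub, mulVec_single_one, single_one_dotProduct, col_apply] at h1 h2
  have h3 := abs_le.1 (hx.2.2 i j)
  have h4 := hle i
  have h5 := hle j
  have e1 := S_apply x i j
  have e2 := S_apply x j i
  rw [Real.norm_eq_abs, abs_le]
  constructor <;> linarith [h3.1, h3.2]

omit [DecidableEq n] in
theorem mem_int {R : ℝ} {x : n × n → ℝ} (h1 : ∀ v : n → ℝ, v ≠ 0 → 0 < v ⬝ᵥ S x *ᵥ v)
    (h2 : (S x).trace < R) (h3 : ∀ i j, x (i, j) = x (j, i)) : x ∈ interior (C R) := by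
  rw [mem_interior_iff_mem_nhds]
  have a1 : ∀ᶠ y in 𝓝 x, ∀ v ∈ Metric.sphere (0 : n → ℝ) 1, 0 < v ⬝ᵥ S y *ᵥ v := by
    refine (isCompact_sphere (0 : n → ℝ) 1).eventually_forall_of_forall_eventually
      (P := fun y v => 0 < v ⬝ᵥ S y *ᵥ v) fun v hv => ?_
    have hv0 : v ≠ 0 := by
      rintro rfl
      simp at hv
    exact cont_q.continuousAt.eventually (lt_mem_nhds (h1 v hv0))
  have a2 : ∀ᶠ y in 𝓝 x, (S y).trace < R :=
    continuous_S.matrix_trace.continuousAt.eventually (gt_mem_nhds h2)
  have a3 : ∀ᶠ y in 𝓝 x, ∀ i j, |y (i, j) - y (j, i)| < 1 := by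
    simp only [eventually_all]
    intro i j
    have hc : Continuous fun y : n × n → ℝ => |y (i, j) - y (j, i)| := by fun_prop
    exact hc.continuousAt.eventually (gt_mem_nhds (by simp [h3 i j]))
  filter_upwards [a1, a2, a3] with y b1 b2 b3
  refine ⟨fun v => ?_, b2.le, fun i j => (b3 i j).le⟩
  by_cases hv : v = 0
  · simp [hv]
  · have hn : ‖v‖ ≠ 0 := norm_ne_zero_iff.2 hv
    have := b1 (‖v‖⁻¹ • v) (by simp [norm_smul, hn])
    rw [mulVec_smul, smul_dotProduct, dotProduct_smul, smul_eq_mul, smul_eq_mul,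
      ← mul_assoc] at this
    exact ((mul_pos_iff_of_pos_left (by positivity)).1 this).le

end LandS

open LandS Vale.Agent.Lib.Degree in
/-- landing on the cone of positive semidefinite matrices -/
theorem landing_psd {n : Type} [Fintype n] [DecidableEq n] (F : Matrix n n ℝ → Matrix n n ℝ)
    (hc : Continuous F) (hs : ∀ T : Matrix n n ℝ, Tᵀ = T → (F T)ᵀ = F T)
    (h0 : ∀ T : Matrix n n ℝ, T.PosSemidef → ∀ e : n → ℝ, e ≠ 0 → T *ᵥ e = 0 →
      0 < e ⬝ᵥ F T *ᵥ e)
    (R : ℝ) (hRn : (Fintype.card n : ℝ) < R)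
    (hR : ∀ T : Matrix n n ℝ, T.PosSemidef → T.trace = R → (F T).trace < 0) :
    ∃ T : Matrix n n ℝ, T.PosSemidef ∧ T.trace ≤ R ∧ F T = 0 := by
  let f : (n × n → ℝ) → (n × n → ℝ) := fun x p => (-F (S x) + (M x - S x)) p.1 p.2
  let z : n × n → ℝ := fun p => (1 : Matrix n n ℝ) p.1 p.2
  let g : (n × n → ℝ) → (n × n → ℝ) := fun x => ContinuousLinearMap.id ℝ _ (x - z)
  have hf : Continuous f := continuous_pi fun p =>
    (((hc.comp continuous_S).neg.add (continuous_M.sub continuous_S)).matrix_elem p.1 p.2)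
  have hg : Continuous g := by fun_prop
  have ho : IsOpen (interior (C R : Set (n × n → ℝ))) := isOpen_interior
  have hb : Bornology.IsBounded (interior (C R : Set (n × n → ℝ))) :=
    (bdd_C R).subset interior_subset
  have hcl : closure (interior (C R : Set (n × n → ℝ))) ⊆ C R :=
    closure_minimal interior_subset (closed_C R)
  have key : ∀ (x : n × n → ℝ) (t : ℝ), f x + t • (g x - f x) = 0 →
      (∀ i j, x (i, j) = x (j, i)) ∧ (1 - t) • F (S x) = t • (S x - 1) := by
    intro x t h
    have e : ∀ i j, -F (S x) i j + (x (i, j) - S x i j) + t * ((x (i, j) - (1 : Matrix n n ℝ) i j) -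
        (-F (S x) i j + (x (i, j) - S x i j))) = 0 := fun i j => by
      simpa [f, g, z, M] using congrFun h (i, j)
    have sym : ∀ i j, x (i, j) = x (j, i) := by
      intro i j
      have e1 := e i j
      have e2 := e j i
      have e3 : F (S x) j i = F (S x) i j := congrFun (congrFun (hs _ (S_symm x)) i) j
      have e4 : (1 : Matrix n n ℝ) j i = (1 : Matrix n n ℝ) i j :=
        congrFun (congrFun transpose_one i) j
      have e5 : S x j i = S x i j := congrFun (congrFun (S_symm x) i) j
      rw [e3, e4, e5] at e2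
      linarith
    refine ⟨sym, ?_⟩
    ext i j
    have e1 := e i j
    have e2 : S x i j = x (i, j) := by rw [S_apply, sym j i]; ring
    simp only [Matrix.smul_apply, Matrix.sub_apply, smul_eq_mul]
    rw [e2] at e1 ⊢
    linarith
  have hfr : ∀ x ∈ frontier (interior (C R : Set (n × n → ℝ))), ∀ t ∈ Icc (0 : ℝ) 1,
      f x + t • (g x - f x) ≠ 0 := by
    intro x hx t ht h
    obtain ⟨sym, e⟩ := key x t h
    have hxC := hcl hx.1
    have hp := psd_of_mem hxC
    have hni : x ∉ interior (C R) := by
      have := hx.2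
      rwa [interior_interior] at this
    have sgn : ∀ a b : ℝ, (1 - t) * a = t * b → a * b < 0 → False := by
      intro a b h1 h2
      have h3 : (1 - t) * (a * b) = t * (b * b) := by rw [← mul_assoc, h1]; ring
      have h4 : (1 - t) * (a * a) = t * (a * b) := by
        rw [← mul_assoc, h1]; ring
      have hb0 : b ≠ 0 := by rintro rfl; simp at h2
      have ha0 : a ≠ 0 := by rintro rfl; simp at h2
      have h5 := mul_self_pos.2 hb0
      have h6 := mul_self_pos.2 ha0
      nlinarith [ht.1, ht.2, mul_nonneg ht.1 h5.le, mul_nonneg (sub_nonneg.2 ht.2) h6.le]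
    refine hni (mem_int (fun v hv => ?_) ?_ sym)
    · refine (hxC.1 v).lt_of_ne fun h0' => ?_
      have hv0 : S x *ᵥ v = 0 := by
        have := (hp.dotProduct_mulVec_zero_iff v).1 (by simpa using h0'.symm)
        exact this
      have b1 := h0 _ hp v hv hv0
      have b2 := congrArg (fun A : Matrix n n ℝ => v ⬝ᵥ A *ᵥ v) e
      simp only [smul_mulVec, dotProduct_smul, smul_eq_mul, sub_mulVec, hv0, one_mulVec,
        zero_sub, dotProduct_neg] at b2
      have b3 : 0 < v ⬝ᵥ v := by
        have := dotProduct_self_star_pos_iff.2 hv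
        simpa using this
      exact sgn _ _ b2 (by nlinarith)
    · refine hxC.2.1.lt_of_ne fun h0' => ?_
      have b1 := hR _ hp h0'
      have b2 := congrArg Matrix.trace e
      simp only [trace_smul, smul_eq_mul, trace_sub, trace_one, h0'] at b2
      exact sgn _ _ b2 (by nlinarith)
  have hSz : S z = 1 := by
    have : M z = 1 := by ext i j; rfl
    rw [S, this, transpose_one, ← two_smul ℝ, smul_smul]; norm_num
  have hz : z ∈ interior (C R) := by
    refine mem_int (fun v hv => ?_) (by rw [hSz]; simpa using hRn) fun i j => ?_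
    · rw [hSz, one_mulVec]
      have := dotProduct_self_star_pos_iff.2 hv
      simpa using this
    · exact (congrFun (congrFun transpose_one i) j).symm
  obtain ⟨r, hr, hball⟩ := Metric.isOpen_iff.1 ho z hz
  have d1 : deg g (Metric.ball z r) = 1 := by
    have hdet : (ContinuousLinearMap.id ℝ (n × n → ℝ)).det = 1 := by
      simp [ContinuousLinearMap.det]
    have := deg_affine (L := ContinuousLinearMap.id ℝ (n × n → ℝ)) (by rw [hdet]; norm_num) z hr
    rw [hdet, if_pos one_pos] at this
    exact this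
  have d2 : deg g (interior (C R)) = deg g (Metric.ball z r) :=
    deg_excision hg ho hb Metric.isOpen_ball hball fun x _ hx => by
      have : x = z := by simpa [g, sub_eq_zero] using hx
      rw [this]; exact Metric.mem_ball_self hr
  have d3 : deg f (interior (C R)) = deg g (interior (C R)) := deg_homotopy hf hg ho hb hfr
  obtain ⟨x, hx, hx0⟩ := exists_zero_of_deg_ne_zero hf ho hb (by rw [d3, d2, d1]; norm_num)
  obtain ⟨-, e⟩ := key x 0 (by simpa using hx0)
  exact ⟨S x, psd_of_mem (hcl hx), (hcl hx).2.1, by simpa using e⟩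

end Vale.Agent.P371G
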