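import Vale.Agent.P371.Lower

open Real Finset Filter Topology MeasureTheory Matrix
open scoped ENNReal ComplexOrder

namespace Vale.Agent.P371G

open Vale.Agent.P371

namespace LowX

noncomputable def q (x : ℝ) : ℝ := sigmoid x * (1 - sigmoid x)

lemma q_pos (x : ℝ) : 0 < q x := mul_pos (sigmoid_pos x) (sub_pos.2 (sigmoid_lt_one x))

lemma q_le (x : ℝ) : q x ≤ 1 / 4 := by
  unfold q; nlinarith [sq_nonneg (sigmoid x - 1 / 2)]

lemma q_deriv (x : ℝ) : HasDerivAt q ((1 - 2 * sigmoid x) * q x) x :=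
  ((hasDerivAt_sigmoid x).mul ((hasDerivAt_sigmoid x).const_sub 1)).congr_deriv (by
    unfold q; ring)

lemma q_cont : Continuous q := continuous_iff_continuousAt.2 fun x => (q_deriv x).continuousAt

lemma q_int {a : ℝ} (ha : 0 < a) :
    (Integrable fun x => q x ^ a) ∧ ∫ x, q x ^ a = ProbabilityTheory.beta a a := by
  have hd : ∀ x ∈ (Set.univ : Set ℝ), HasDerivWithinAt sigmoid (q x) Set.univ x :=
    fun x _ => (hasDerivAt_sigmoid x).hasDerivWithinAt
  have e : ∀ x, |q x| • ((sigmoid x : ℂ) ^ ((a : ℂ) - 1) * (1 - (sigmoid x : ℂ)) ^ ((a : ℂ) - 1)) =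
      ((q x ^ a : ℝ) : ℂ) := fun x => by
    have h1 := (sigmoid_pos x).le
    have h2 := (sub_pos.2 (sigmoid_lt_one x)).le
    rw [← Complex.ofReal_one, ← Complex.ofReal_sub, ← Complex.ofReal_sub,
      ← Complex.ofReal_cpow h1, ← Complex.ofReal_cpow h2, ← Complex.ofReal_mul,
      ← Real.mul_rpow h1 h2, abs_of_pos (q_pos x), Complex.real_smul, ← Complex.ofReal_mul]
    congr 1
    show q x * q x ^ (a - 1) = _
    rw [Real.rpow_sub_one (q_pos x).ne', mul_div_cancel₀ _ (q_pos x).ne']
  have hc := Complex.betaIntegral_convergent (u := a) (v := a) (by simpa) (by simpa)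
  rw [intervalIntegrable_iff_integrableOn_Ioo_of_le zero_le_one, ← range_sigmoid,
    ← Set.image_univ, integrableOn_image_iff_integrableOn_abs_deriv_smul MeasurableSet.univ hd
      sigmoid_injective.injOn, integrableOn_univ] at hc
  simp only [e] at hc
  refine ⟨by simpa using hc.re, ?_⟩
  rw [ProbabilityTheory.beta_eq_betaIntegralReal a a ha ha, Complex.betaIntegral,
    intervalIntegral.integral_of_le zero_le_one, integral_Ioc_eq_integral_Ioo, ← range_sigmoid,
    ← Set.image_univ, integral_image_eq_integral_abs_deriv_smul MeasurableSet.univ hd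
      sigmoid_injective.injOn, Measure.restrict_univ]
  simp only [e]
  rw [integral_complex_ofReal, Complex.ofReal_re]

noncomputable def ph (b x : ℝ) : ℝ := (√(ProbabilityTheory.beta b b))⁻¹ * q x ^ (b / 2)

noncomputable def ph1 (b x : ℝ) : ℝ := b / 2 * (1 - 2 * sigmoid x) * ph b x

noncomputable def ph2 (b x : ℝ) : ℝ := (b ^ 2 / 4 - b * (b + 1) * q x) * ph b x

variable {b : ℝ}

lemma ph_sq (hb : 0 < b) (x : ℝ) :
    ph b x * ph b x = (ProbabilityTheory.beta b b)⁻¹ * q x ^ b := by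
  rw [ph, mul_mul_mul_comm, ← mul_inv, mul_self_sqrt (ProbabilityTheory.beta_pos hb hb).le,
    ← Real.rpow_add (q_pos x), add_halves]

lemma ph_deriv (x : ℝ) : HasDerivAt (ph b) (ph1 b x) x := by
  refine (((q_deriv x).rpow_const (Or.inl (q_pos x).ne')).const_mul _).congr_deriv ?_
  have := (q_pos x).ne'
  rw [ph1, ph, Real.rpow_sub_one this]
  field_simp

lemma ph_cont : Continuous (ph b) :=
  continuous_iff_continuousAt.2 fun x => (ph_deriv x).continuousAt

lemma ph1_deriv (x : ℝ) : HasDerivAt (ph1 b) (ph2 b x) x := by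
  refine (((((hasDerivAt_sigmoid x).const_mul 2).const_sub 1).const_mul (b / 2)).mul
    (ph_deriv x)).congr_deriv ?_
  simp only [ph1, ph2, q]
  ring

lemma ph1_cont : Continuous (ph1 b) :=
  continuous_iff_continuousAt.2 fun x => (ph1_deriv x).continuousAt

lemma ph_mem (hb : 0 < b) {g : ℝ → ℝ} (hg : Continuous g) (h1 : ∀ x, |g x| ≤ 1) :
    MemLp (fun x => g x * ph b x) 2 volume := by
  have h0 : MemLp (ph b) 2 volume := by
    rw [memLp_two_iff_integrable_sq ph_cont.aestronglyMeasurable]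
    simpa only [sq, ph_sq hb] using (q_int hb).1.const_mul (ProbabilityTheory.beta b b)⁻¹
  refine h0.of_le (hg.mul ph_cont).aestronglyMeasurable (Eventually.of_forall fun x => ?_)
  rw [norm_mul]
  exact mul_le_of_le_one_left (norm_nonneg _) (h1 x)

lemma ph1_mem (hb : 0 < b) (hb1 : b < 1) : MemLp (ph1 b) 2 volume :=
  ph_mem hb (continuous_const.mul (continuous_const.sub (continuous_const.mul continuous_sigmoid)))
    fun x => by
      have h1 := sigmoid_pos x
      have h2 := sigmoid_lt_one x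
      rw [abs_le]; constructor <;> nlinarith

lemma g2_cont : Continuous fun x => b ^ 2 / 4 - b * (b + 1) * q x :=
  continuous_const.sub (continuous_const.mul q_cont)

lemma ph2_mem (hb : 0 < b) (hb1 : b < 1) : MemLp (ph2 b) 2 volume :=
  ph_mem hb g2_cont fun x => by
    have h1 := q_pos x
    have h2 := q_le x
    have h3 : b * (b + 1) ≤ 2 := by nlinarith
    have h4 : 0 ≤ b * (b + 1) * q x := by positivity
    rw [abs_le]; constructor <;> nlinarith

lemma ph_H1 (hb : 0 < b) (hb1 : b < 1) : H1 (ph b) (ph1 b) :=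
  ⟨by simpa using ph_mem hb (g := fun _ => 1) continuous_const (by simp), ph1_mem hb hb1,
    fun _ _ => (intervalIntegral.integral_eq_sub_of_hasDerivAt (fun x _ => ph_deriv x)
      (ph1_cont.intervalIntegrable _ _)).symm⟩

lemma ph1_H1 (hb : 0 < b) (hb1 : b < 1) : H1 (ph1 b) (ph2 b) :=
  ⟨ph1_mem hb hb1, ph2_mem hb hb1, fun _ _ =>
    (intervalIntegral.integral_eq_sub_of_hasDerivAt (fun x _ => ph1_deriv x)
      ((g2_cont.mul ph_cont).intervalIntegrable _ _)).symm⟩

variable {m : ℕ}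

noncomputable def exW (b : ℝ) (m : ℕ) (x : ℝ) : Matrix (Fin m) (Fin m) ℂ :=
  algebraMap ℝ _ (b * (b + 1) * q x)

noncomputable def exψ (b : ℝ) (j : Fin m) (x : ℝ) : Fin m → ℂ := Pi.single j (ph b x : ℂ)

lemma exW_apply (x : ℝ) (i k : Fin m) :
    exW b m x i k = if i = k then ((b * (b + 1) * q x : ℝ) : ℂ) else 0 := by
  rw [exW, Matrix.algebraMap_matrix_apply]; rfl

lemma ex_eigen (hb : 0 < b) (hb1 : b < 1) (j : Fin m) :
    IsEigen (exW b m) (-(b ^ 2 / 4)) (exψ b j) := by
  refine ⟨fun x => Pi.single j (ph1 b x : ℂ), fun i => ?_, fun χ χ' hχ => ?_⟩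
  · by_cases h : i = j
    · subst h
      simp only [exψ, Pi.single_eq_same]
      refine ⟨(ph_H1 hb hb1).1.ofReal, (ph_H1 hb hb1).2.1.ofReal, fun a c => ?_⟩
      rw [intervalIntegral.integral_ofReal, ← (ph_H1 hb hb1).2.2, Complex.ofReal_sub]
    · simp [exψ, h]
  · have e1 : ∀ x, star (χ x) ⬝ᵥ (exW b m x *ᵥ exψ b j x) =
        star (χ x j) * ((b * (b + 1) * q x * ph b x : ℝ) : ℂ) := fun x => by
      simp only [exψ, mulVec_single, dotProduct, Pi.star_apply, Pi.smul_apply, col_apply,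
        exW_apply]
      simp
    simp only [e1]
    simp only [exψ, dotProduct_single, Pi.star_apply]
    have i1 : Integrable fun x => star (χ' x j) * (ph1 b x : ℂ) :=
      (hχ j).2.1.star.integrable_mul (ph1_mem hb hb1).ofReal
    have i2 : Integrable fun x => star (χ x j) * (ph b x : ℂ) :=
      (hχ j).1.star.integrable_mul (ph_H1 hb hb1).1.ofReal
    have i3 : Integrable fun x => star (χ x j) * (ph2 b x : ℂ) :=
      (hχ j).1.star.integrable_mul (ph2_mem hb hb1).ofReal
    have e2 : ∀ x, star (χ x j) * ((b * (b + 1) * q x * ph b x : ℝ) : ℂ) =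
        ((b ^ 2 / 4 : ℝ) : ℂ) * (star (χ x j) * (ph b x : ℂ)) - star (χ x j) * (ph2 b x : ℂ) :=
      fun x => by simp only [ph2]; push_cast; ring
    simp only [e2]
    rw [integral_sub (i2.const_mul _) i3, integral_const_mul]
    have e3 : (∫ x, star (χ' x j) * (ph1 b x : ℂ)) + ∫ x, star (χ x j) * (ph2 b x : ℂ) = 0 := by
      rw [← integral_add i1 i3]
      apply Complex.ext
      · refine (integral_re (i1.add i3)).symm.trans ?_
        simpa using (hχ.clm j Complex.reCLM).ibp (ph1_H1 hb hb1)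
      · refine (integral_im (i1.add i3)).symm.trans ?_
        simpa using (hχ.clm j (-Complex.imCLM)).ibp (ph1_H1 hb hb1)
    push_cast
    linear_combination e3

lemma ex_on (hb : 0 < b) (j k : Fin m) :
    ∫ x, star (exψ b j x) ⬝ᵥ exψ b k x = if j = k then 1 else 0 := by
  simp only [exψ, dotProduct_single, Pi.star_apply]
  split_ifs with h
  · subst h
    simp only [Pi.single_eq_same, Complex.star_def, Complex.conj_ofReal, ← Complex.ofReal_mul,
      ph_sq hb]
    rw [integral_complex_ofReal, integral_const_mul, (q_int hb).2,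
      inv_mul_cancel₀ (ProbabilityTheory.beta_pos hb hb).ne']
    simp
  · simp [Ne.symm h]

lemma ex_tr (hb : 0 < b) : trPowInt (b + 1) (exW b m) = ENNReal.ofReal
    (m * ((b * (b + 1)) ^ (b + 1) * ProbabilityTheory.beta (b + 1) (b + 1))) := by
  have hb' : 0 < b + 1 := by linarith
  have e : ∀ x, (trace (cfc (fun t : ℝ => t ^ (b + 1)) (exW b m x))).re =
      m * ((b * (b + 1)) ^ (b + 1) * q x ^ (b + 1)) := fun x => by
    rw [exW, cfc_algebraMap, Real.mul_rpow (by positivity) (q_pos x).le]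
    generalize (b * (b + 1)) ^ (b + 1) * q x ^ (b + 1) = r
    simp [trace, Matrix.algebraMap_matrix_apply]
  simp only [trPowInt, e]
  rw [← ofReal_integral_eq_lintegral_ofReal (((q_int hb').1.const_mul _).const_mul _)
    (Eventually.of_forall fun x => by have := q_pos x; positivity), integral_const_mul,
    integral_const_mul, (q_int hb').2]

lemma const_eq (hb : 0 < b) : Lone (b + 1 / 2) =
    (b ^ 2 / 4) ^ (b + 1 / 2) / ((b * (b + 1)) ^ (b + 1) * ProbabilityTheory.beta (b + 1) (b + 1)) := by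
  have hb' : 0 < b + 1 := by linarith
  have d := Real.Gamma_mul_Gamma_add_half (b + 1)
  have g1 := Real.Gamma_pos_of_pos hb'
  have g2 : 0 < Real.Gamma (2 * (b + 1)) := Real.Gamma_pos_of_pos (by linarith)
  have e1 : (b ^ 2 / 4) ^ (b + 1 / 2) = b ^ b * b ^ b * b * 2 ^ (1 - 2 * (b + 1)) := by
    rw [show b ^ 2 / 4 = (b / 2) ^ (2 : ℝ) by rw [Real.rpow_two]; ring,
      ← Real.rpow_mul (by positivity), Real.div_rpow hb.le zero_le_two,
      show 1 - 2 * (b + 1) = -(2 * (b + 1 / 2)) by ring, Real.rpow_neg zero_le_two,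
      show 2 * (b + 1 / 2) = b + b + 1 by ring, Real.rpow_add_one hb.ne', Real.rpow_add hb,
      div_eq_mul_inv]
  have e2 : (b * (b + 1)) ^ (b + 1) = b ^ b * (b + 1) ^ b * (b * (b + 1)) := by
    rw [Real.rpow_add_one (by positivity), Real.mul_rpow hb.le hb'.le]
  have p1 := Real.rpow_pos_of_pos hb b
  have p2 := Real.rpow_pos_of_pos hb' b
  have p3 := Real.sqrt_pos.2 pi_pos
  rw [Lone, Lcl, ProbabilityTheory.beta, e1, e2, add_sub_cancel_right,
    show b + 1 / 2 + 1 / 2 = b + 1 by ring, show b + 1 / 2 + 1 = b + 1 + 1 / 2 by ring,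
    show b + 1 / 2 + 3 / 2 = b + 1 + 1 by ring, Real.Gamma_add_one hb'.ne',
    show b + 1 + (b + 1) = 2 * (b + 1) by ring, Real.div_rpow hb.le hb'.le,
    eq_div_of_mul_eq g1.ne' ((mul_comm _ _).trans d)]
  field_simp

end LowX

theorem lower (g : ℝ) (h1 : 1 / 2 < g) (h2 : g < 3 / 2) {m : ℕ} (hm : 1 ≤ m) :
    ENNReal.ofReal (Lone g) ≤ LT g m := by
  obtain ⟨b, rfl⟩ : ∃ b, g = b + 1 / 2 := ⟨g - 1 / 2, by ring⟩
  have hb : 0 < b := by linarith
  have hb1 : b < 1 := by linarith
  have hb' : 0 < b + 1 := by linarith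
  have hm0 : (0 : ℝ) < m := by exact_mod_cast hm
  have ep : b + 1 / 2 + 1 / 2 = b + 1 := by ring
  have hP : IsPotential (b + 1 / 2) (LowX.exW b m) := by
    refine ⟨fun i k => ?_, fun x => ?_, by rw [ep, LowX.ex_tr hb]; exact ENNReal.ofReal_lt_top⟩
    · simp only [LowX.exW_apply]
      split_ifs
      · exact (Complex.continuous_ofReal.comp (continuous_const.mul LowX.q_cont)).measurable
      · exact measurable_const
    · rw [LowX.exW, Algebra.algebraMap_eq_smul_one]
      exact PosSemidef.one.smul (by have := LowX.q_pos x; positivity)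
  have hne : ¬ ∀ᵐ x, LowX.exW b m x = 0 := fun h => by
    obtain ⟨x, hx⟩ := h.exists
    have := congrFun (congrFun hx ⟨0, hm⟩) ⟨0, hm⟩
    rw [LowX.exW_apply, if_pos rfl, Matrix.zero_apply, Complex.ofReal_eq_zero] at this
    have h2 := LowX.q_pos x
    exact absurd this (by positivity)
  refine le_iSup_of_le (LowX.exW b m) (le_iSup_of_le hP (le_iSup_of_le hne ?_))
  have p0 : 0 < b ^ 2 / 4 := by positivity
  have h3 : ENNReal.ofReal (m * (b ^ 2 / 4) ^ (b + 1 / 2)) ≤ riesz (b + 1 / 2) (LowX.exW b m) :=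
    le_iSup_of_le m (le_iSup_of_le (fun _ => -(b ^ 2 / 4)) (le_iSup_of_le (LowX.exψ b)
      (le_iSup_of_le (fun j => ⟨by linarith, LowX.ex_eigen hb hb1 j⟩) (le_iSup_of_le (LowX.ex_on hb)
        (le_of_eq (by simp only [abs_neg, abs_of_pos p0]; simp))))))
  refine le_trans (le_of_eq ?_) (ENNReal.div_le_div_right h3 _)
  have p1 := ProbabilityTheory.beta_pos hb' hb'
  rw [ep, LowX.ex_tr hb, ← ENNReal.ofReal_div_of_pos (by positivity), LowX.const_eq hb,
    mul_div_mul_left _ _ hm0.ne']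

end Vale.Agent.P371G
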